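import Vale.Agent.Lib.P064Q.Forest
import Vale.Agent.Lib.P064Q.GroupCopies

/-!
Forests (notes/P064F_blueprint.md): definitions.
-/

open Finset

namespace Vale.Agent.Lib.P064F

open scoped Classical

variable {V : Type} [Fintype V]

/-- `H` is a rooted forest: `S` the roots, `par` the parent map, `r` the depth; every edge of `H` joins a vertex to its parent. -/
structure RF (H : SimpleGraph V) (S : Finset V) (par : V → V) (r : V → ℕ) : Prop where
  root : ∀ y ∈ S, par y = y
  rank : ∀ y, y ∉ S → r (par y) < r y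
  adj : ∀ y, y ∉ S → H.Adj y (par y)
  edge : ∀ a b, H.Adj a b → (a ∉ S ∧ par a = b) ∨ (b ∉ S ∧ par b = a)

/-- The sum over down-trees, by recursion with fuel: `Z_{k+1} x = ∑_{T ⊆ A x} |T|! a^|T| ∏_{v ∈ T} Z_k v`. -/
noncomputable def Zk (A : V → Finset V) (a : ℝ) : ℕ → V → ℝ
  | 0, _ => 1
  | k + 1, x => ∑ T ∈ (A x).powerset, (T.card.factorial : ℝ) * a ^ T.card * ∏ v ∈ T, Zk A a k v

/-- The constant `κ = 32 e^8` of the blueprint. -/
noncomputable def kk : ℝ := 32 * Real.exp 8

lemma kk_pos : 0 < kk := by unfold kk; positivity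

end Vale.Agent.Lib.P064F
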