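import Vale.Agent.Lib.P064F.Basic

/-!
Rooted embeddings are counted by `Zk` (notes/P064F_blueprint.md, parts B1, B2).
-/

open Finset

namespace Vale.Agent.Lib.P064F

open scoped Classical

variable {V : Type} [Fintype V]

/-- Part B1: the sum over injective maps `C → B` of a product is `|C|!` times the sum over `|C|`-subsets of `B`.
`Inj C B` = dependent functions on `C` with values in `B`, injective. -/
theorem sum_inj_le {β : Type} (C : Finset β) (B : Finset V) (Z : V → ℝ) (hZ : ∀ v, 0 ≤ Z v) :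
    ∑ σ ∈ (C.pi fun _ => B).filter
        (fun σ => ∀ a (ha : a ∈ C) b (hb : b ∈ C), σ a ha = σ b hb → a = b),
      ∏ w ∈ C.attach, Z (σ w.1 w.2) ≤
      (C.card.factorial : ℝ) * ∑ T ∈ B.powerset.filter (fun T => T.card = C.card), ∏ v ∈ T, Z v := by
  set s := (C.pi fun _ => B).filter
    (fun σ => ∀ a (ha : a ∈ C) b (hb : b ∈ C), σ a ha = σ b hb → a = b) with hs
  set t := B.powerset.filter (fun T => T.card = C.card) with ht
  let f : ((a : β) → a ∈ C → V) → Finset V := fun σ => C.attach.image (fun w => σ w.1 w.2)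
  have hinjσ : ∀ σ ∈ s, Set.InjOn (fun w : ↥C => σ w.1 w.2) (C.attach : Finset ↥C) := by
    intro σ hσ w _ w' _ h
    have := (Finset.mem_filter.mp hσ).2 w.1 w.2 w'.1 w'.2 h
    exact Subtype.ext this
  have hmaps : ∀ σ ∈ s, f σ ∈ t := by
    intro σ hσ
    have hpi := (Finset.mem_filter.mp hσ).1
    rw [ht, Finset.mem_filter, Finset.mem_powerset]
    constructor
    · intro v hv
      obtain ⟨w, _, rfl⟩ := Finset.mem_image.mp hv
      exact Finset.mem_pi.mp hpi w.1 w.2
    · show (C.attach.image _).card = C.card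
      rw [Finset.card_image_of_injOn (hinjσ σ hσ), Finset.card_attach]
  have hval : ∀ σ ∈ s, ∏ w ∈ C.attach, Z (σ w.1 w.2) = ∏ v ∈ f σ, Z v := by
    intro σ hσ
    exact (Finset.prod_image (hinjσ σ hσ)).symm
  have hfib : ∀ T ∈ t, ((s.filter (fun σ => f σ = T)).card) ≤ C.card.factorial := by
    intro T hT
    have hTc : T.card = C.card := (Finset.mem_filter.mp hT).2
    have hsub : s.filter (fun σ => f σ = T) ⊆
        (univ : Finset (↥C ↪ ↥T)).image (fun e a ha => ((e ⟨a, ha⟩ : ↥T) : V)) := by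
      intro σ hσ
      obtain ⟨hσs, hfT⟩ := Finset.mem_filter.mp hσ
      rw [Finset.mem_image]
      have hmem : ∀ w : ↥C, σ w.1 w.2 ∈ T := by
        intro w
        rw [← hfT]
        exact Finset.mem_image.mpr ⟨w, Finset.mem_attach _ _, rfl⟩
      refine ⟨⟨fun w => ⟨σ w.1 w.2, hmem w⟩, ?_⟩, Finset.mem_univ _, ?_⟩
      · intro w w' h
        have h' : σ w.1 w.2 = σ w'.1 w'.2 := congrArg Subtype.val h
        exact hinjσ σ hσs (Finset.mem_coe.mpr (Finset.mem_attach _ _))
          (Finset.mem_coe.mpr (Finset.mem_attach _ _)) h'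
      · rfl
    calc (s.filter (fun σ => f σ = T)).card
        ≤ ((univ : Finset (↥C ↪ ↥T)).image (fun e a ha => ((e ⟨a, ha⟩ : ↥T) : V))).card :=
          Finset.card_le_card hsub
      _ ≤ (univ : Finset (↥C ↪ ↥T)).card := Finset.card_image_le
      _ = C.card.factorial := by
          rw [Finset.card_univ, Fintype.card_embedding_eq, Fintype.card_coe, Fintype.card_coe, hTc,
            Nat.descFactorial_self]
  calc ∑ σ ∈ s, ∏ w ∈ C.attach, Z (σ w.1 w.2)
      = ∑ σ ∈ s, ∏ v ∈ f σ, Z v := Finset.sum_congr rfl hval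
    _ = ∑ T ∈ t, ∑ σ ∈ s.filter (fun σ => f σ = T), ∏ v ∈ f σ, Z v :=
        (Finset.sum_fiberwise_of_maps_to hmaps _).symm
    _ = ∑ T ∈ t, ((s.filter (fun σ => f σ = T)).card : ℝ) * ∏ v ∈ T, Z v := by
        apply Finset.sum_congr rfl
        intro T _
        rw [Finset.sum_congr rfl (g := fun _ => ∏ v ∈ T, Z v)
          (fun σ hσ => by rw [(Finset.mem_filter.mp hσ).2])]
        rw [Finset.sum_const, nsmul_eq_mul]
    _ ≤ ∑ T ∈ t, (C.card.factorial : ℝ) * ∏ v ∈ T, Z v := by
        apply Finset.sum_le_sum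
        intro T hT
        apply mul_le_mul_of_nonneg_right
        · exact_mod_cast hfib T hT
        · exact Finset.prod_nonneg fun v _ => hZ v
    _ = (C.card.factorial : ℝ) * ∑ T ∈ t, ∏ v ∈ T, Z v := by
        rw [Finset.mul_sum]

/-- The rooted embeddings counted in `count_le`. -/
noncomputable def Fam (S : Finset V) (par : V → V) {β : Type} [Fintype β] (π : β → β) (z : β) (t : V) :
    Finset (β → V) :=
  (univ : Finset (β → V)).filter fun φ => Function.Injective φ ∧ φ z = t ∧
        ∀ y, y ≠ z → φ y ∉ S ∧ par (φ y) = φ (π y)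

lemma mem_Fam (S : Finset V) (par : V → V) {β : Type} [Fintype β] (π : β → β) (z : β) (t : V)
    (φ : β → V) : φ ∈ Fam S par π z t ↔ Function.Injective φ ∧ φ z = t ∧
        ∀ y, y ≠ z → φ y ∉ S ∧ par (φ y) = φ (π y) := by
  simp [Fam]

lemma Zk_one_le (A : V → Finset V) {a : ℝ} (ha : 0 ≤ a) : ∀ (k : ℕ) (x : V), 1 ≤ Zk A a k x := by
  intro k
  induction k with
  | zero => intro x; simp [Zk]
  | succ k ih =>
    intro x
    have hnn : ∀ T ∈ (A x).powerset,
        0 ≤ (T.card.factorial : ℝ) * a ^ T.card * ∏ v ∈ T, Zk A a k v := by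
      intro T _
      have : 0 ≤ ∏ v ∈ T, Zk A a k v :=
        Finset.prod_nonneg fun v _ => le_trans zero_le_one (ih v)
      positivity
    have h := Finset.single_le_sum hnn (Finset.empty_mem_powerset (A x))
    simpa [Zk] using h

/-- The subtree map. -/
noncomputable def subPi {β : Type} (π : β → β) (D : Finset β) (w : β)
    (hst : ∀ y ∈ D, y ≠ w → π y ∈ D) : ↥D → ↥D :=
  fun y => if h : y.1 = w then y else ⟨π y.1, hst y.1 y.2 h⟩

theorem count_aux (S : Finset V) (par : V → V) {A : ℝ} (hA : 0 < A) :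
    ∀ (K : ℕ) (β : Type) [Fintype β] (π : β → β) (z : β) (rG : β → ℕ), π z = z →
      (∀ y, y ≠ z → rG (π y) < rG y) → (∀ y, rG y ≤ K) → ∀ t,
      ((Fam S par π z t).card : ℝ) ≤
        A ^ (Fintype.card β - 1) * Zk (Vale.Agent.Lib.P064Q.kids S par) (1 / A) (K + 1) t := by
  have hAinv : (0 : ℝ) ≤ 1 / A := by positivity
  intro K
  induction K with
  | zero =>
    intro β _ π z rG hπz hπ hK t
    have hall : ∀ y, y = z := by
      intro y
      by_contra hy
      have h1 := hπ y hy
      have h2 := hK y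
      omega
    have hcardβ : Fintype.card β - 1 = 0 := by
      have : Fintype.card β ≤ 1 := Fintype.card_le_one_iff.mpr fun a b => by rw [hall a, hall b]
      omega
    rw [hcardβ, pow_zero, one_mul]
    have hcard : (Fam S par π z t).card ≤ 1 := by
      apply Finset.card_le_one.mpr
      intro φ hφ φ' hφ'
      funext y
      rw [hall y]
      have h1 := (Finset.mem_filter.mp hφ).2.2.1
      have h2 := (Finset.mem_filter.mp hφ').2.2.1
      rw [h1, h2]
    calc ((Fam S par π z t).card : ℝ) ≤ 1 := by exact_mod_cast hcard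
      _ ≤ _ := Zk_one_le _ hAinv _ _
  | succ K IH =>
    intro β _ π z rG hπz hπ hK t
    have hiter : ∀ n, π^[n] z = z := fun n => Function.iterate_fixed hπz n
    let C : Finset β := univ.filter fun w => w ≠ z ∧ π w = z
    let D : β → Finset β := fun w => univ.filter fun y => ∃ k, π^[k] y = w
    have hCmem : ∀ w, w ∈ C ↔ w ≠ z ∧ π w = z := by
      intro w; simp [C]
    have hDmem : ∀ w y, y ∈ D w ↔ ∃ k, π^[k] y = w := by
      intro w y; simp [D]
    have hself : ∀ w, w ∈ D w := fun w => (hDmem w w).mpr ⟨0, rfl⟩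
    have hzD : ∀ w ∈ C, z ∉ D w := by
      intro w hw hz
      obtain ⟨k, hk⟩ := (hDmem w z).mp hz
      rw [hiter k] at hk
      exact ((hCmem w).mp hw).1 hk.symm
    have hstep : ∀ w, ∀ y ∈ D w, y ≠ w → π y ∈ D w := by
      intro w y hy hne
      obtain ⟨k, hk⟩ := (hDmem w y).mp hy
      cases k with
      | zero => exact absurd hk hne
      | succ k =>
        exact (hDmem w (π y)).mpr ⟨k, by rw [← hk, Function.iterate_succ_apply]⟩
    have hcover : ∀ n, ∀ y, rG y = n → y ≠ z → ∃ w ∈ C, y ∈ D w := by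
      intro n
      induction n using Nat.strong_induction_on with
      | _ n ih =>
        intro y hy hyz
        by_cases hπy : π y = z
        · exact ⟨y, (hCmem y).mpr ⟨hyz, hπy⟩, hself y⟩
        · have hlt := hπ y hyz
          obtain ⟨w, hw, hyw⟩ := ih (rG (π y)) (by omega) (π y) rfl hπy
          refine ⟨w, hw, ?_⟩
          obtain ⟨k, hk⟩ := (hDmem w _).mp hyw
          exact (hDmem w y).mpr ⟨k + 1, by rw [Function.iterate_succ_apply, hk]⟩
    have hdisj0 : ∀ (y : β) (k m : ℕ) (w w' : β), w ∈ C → w' ∈ C → π^[k] y = w → π^[k + m] y = w' →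
        w = w' := by
      intro y k m w w' hw hw' hk hkm
      rw [add_comm, Function.iterate_add_apply, hk] at hkm
      cases m with
      | zero => exact hkm
      | succ m =>
        rw [Function.iterate_succ_apply, ((hCmem w).mp hw).2, hiter m] at hkm
        exact absurd hkm.symm ((hCmem w').mp hw').1
    have hdisj : ∀ w ∈ C, ∀ w' ∈ C, ∀ y, y ∈ D w → y ∈ D w' → w = w' := by
      intro w hw w' hw' y hy hy'
      obtain ⟨k, hk⟩ := (hDmem w y).mp hy
      obtain ⟨k', hk'⟩ := (hDmem w' y).mp hy'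
      rcases le_total k k' with h | h
      · obtain ⟨m, rfl⟩ := Nat.exists_eq_add_of_le h
        exact hdisj0 y k m w w' hw hw' hk hk'
      · obtain ⟨m, rfl⟩ := Nat.exists_eq_add_of_le h
        exact (hdisj0 y k' m w' w hw' hw hk' hk).symm
    -- the partition count
    have hcardβ : Fintype.card β = 1 + ∑ w ∈ C, (D w).card := by
      have hun : (univ : Finset β) = insert z (C.biUnion D) := by
        ext y
        simp only [mem_univ, mem_insert, mem_biUnion, true_iff]
        by_cases hy : y = z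
        · exact Or.inl hy
        · exact Or.inr (hcover _ y rfl hy)
      have hnot : z ∉ C.biUnion D := by
        intro h
        obtain ⟨w, hw, hz⟩ := Finset.mem_biUnion.mp h
        exact hzD w hw hz
      have hcb : (C.biUnion D).card = ∑ w ∈ C, (D w).card := by
        apply Finset.card_biUnion
        intro w hw w' hw' hne
        rw [Function.onFun, Finset.disjoint_left]
        intro y hy hy'
        exact hne (hdisj w hw w' hw' y hy hy')
      rw [← Finset.card_univ, hun, Finset.card_insert_of_notMem hnot, hcb, add_comm]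
    -- subtree data
    let zw : ∀ w : ↥C, ↥(D w.1) := fun w => ⟨w.1, hself w.1⟩
    let πw : ∀ w : ↥C, ↥(D w.1) → ↥(D w.1) := fun w => subPi π (D w.1) w.1 (hstep w.1)
    have hπwz : ∀ w : ↥C, πw w (zw w) = zw w := by
      intro w
      simp [πw, zw, subPi]
    have hπwne : ∀ (w : ↥C) (y : ↥(D w.1)), y ≠ zw w → (πw w y).1 = π y.1 := by
      intro w y hy
      have : y.1 ≠ w.1 := fun h => hy (Subtype.ext h)
      simp [πw, subPi, this]
    have hsub : ∀ (w : ↥C) (u : V), ((Fam S par (πw w) (zw w) u).card : ℝ) ≤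
        A ^ (Fintype.card ↥(D w.1) - 1) *
          Zk (Vale.Agent.Lib.P064Q.kids S par) (1 / A) (K + 1) u := by
      intro w u
      refine IH ↥(D w.1) (πw w) (zw w) (fun y => rG y.1 - 1) (hπwz w) ?_ ?_ u
      · intro y hy
        have hne := hπwne w y hy
        have h1 : y.1 ≠ z := fun h => hzD w.1 w.2 (h ▸ y.2)
        have h2 : π y.1 ≠ z := by
          intro h
          have h3 : (πw w y).1 ∈ D w.1 := (πw w y).2
          rw [hne, h] at h3
          exact hzD w.1 w.2 h3
        have h3 := hπ y.1 h1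
        have h4 := hπ (π y.1) h2
        show rG (πw w y).1 - 1 < rG y.1 - 1
        rw [hne]
        omega
      · intro y
        have := hK y.1
        show rG y.1 - 1 ≤ K
        omega
    -- the fibration
    set F := Fam S par π z t with hF
    let s := (C.pi fun _ => Vale.Agent.Lib.P064Q.kids S par t).filter
      (fun σ => ∀ a (ha : a ∈ C) b (hb : b ∈ C), σ a ha = σ b hb → a = b)
    let sig : (β → V) → ((a : β) → a ∈ C → V) := fun φ a _ => φ a
    have hFmem : ∀ φ, φ ∈ F ↔ Function.Injective φ ∧ φ z = t ∧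
        ∀ y, y ≠ z → φ y ∉ S ∧ par (φ y) = φ (π y) := fun φ => mem_Fam _ _ _ _ _ _
    have hmaps : ∀ φ ∈ F, sig φ ∈ s := by
      intro φ hφ
      obtain ⟨hinj, hz, hrest⟩ := (hFmem φ).mp hφ
      refine Finset.mem_filter.mpr ⟨?_, ?_⟩
      · refine Finset.mem_pi.mpr ?_
        intro a ha
        have h1 := (hCmem a).mp ha
        have h2 := hrest a h1.1
        simp only [sig, Vale.Agent.Lib.P064Q.kids, Finset.mem_filter, Finset.mem_univ, true_and]
        exact ⟨h2.1, by rw [h2.2, h1.2, hz]⟩
      · intro a _ b _ h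
        exact hinj h
    have hfib : ∀ σ ∈ s, ((F.filter (fun φ => sig φ = σ)).card : ℝ) ≤
        ∏ w ∈ C.attach, ((Fam S par (πw w) (zw w) (σ w.1 w.2)).card : ℝ) := by
      intro σ _
      have hle : (F.filter (fun φ => sig φ = σ)).card ≤
          (Fintype.piFinset (fun w : ↥C => Fam S par (πw w) (zw w) (σ w.1 w.2))).card := by
        apply Finset.card_le_card_of_injOn
          (fun φ (w : ↥C) (y : ↥(D w.1)) => φ y.1)
        · intro φ hφ
          obtain ⟨hφF, hsig⟩ := Finset.mem_filter.mp (Finset.mem_coe.mp hφ)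
          obtain ⟨hinj, hz, hrest⟩ := (hFmem φ).mp hφF
          refine Finset.mem_coe.mpr (Fintype.mem_piFinset.mpr ?_)
          intro w
          refine (mem_Fam _ _ _ _ _ _).mpr ⟨?_, ?_, ?_⟩
          · intro y y' h
            exact Subtype.ext (hinj h)
          · rw [← hsig]
          · intro y hy
            have h1 : y.1 ≠ z := fun h => hzD w.1 w.2 (h ▸ y.2)
            have h2 := hrest y.1 h1
            refine ⟨h2.1, ?_⟩
            rw [h2.2]
            show φ (π y.1) = φ (πw w y).1
            rw [hπwne w y hy]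
        · intro φ hφ φ' hφ' h
          obtain ⟨hφF, _⟩ := Finset.mem_filter.mp (Finset.mem_coe.mp hφ)
          obtain ⟨hφF', _⟩ := Finset.mem_filter.mp (Finset.mem_coe.mp hφ')
          obtain ⟨_, hz, _⟩ := (hFmem φ).mp hφF
          obtain ⟨_, hz', _⟩ := (hFmem φ').mp hφF'
          funext y
          by_cases hy : y = z
          · rw [hy, hz, hz']
          · obtain ⟨w, hw, hyw⟩ := hcover _ y rfl hy
            have := congrFun (congrFun h ⟨w, hw⟩) ⟨y, hyw⟩
            exact this
      rw [Fintype.card_piFinset] at hle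
      have : ((F.filter (fun φ => sig φ = σ)).card : ℝ) ≤
          ((∏ w : ↥C, (Fam S par (πw w) (zw w) (σ w.1 w.2)).card : ℕ) : ℝ) := by
        exact_mod_cast hle
      rw [Nat.cast_prod] at this
      exact this
    set ZZ : V → ℝ := Zk (Vale.Agent.Lib.P064Q.kids S par) (1 / A) (K + 1) with hZZ
    have hZZ1 : ∀ v, 1 ≤ ZZ v := fun v => Zk_one_le _ hAinv _ _
    have hZZ0 : ∀ v, 0 ≤ ZZ v := fun v => le_trans zero_le_one (hZZ1 v)
    let cA : ℝ := ∏ w ∈ C.attach, A ^ (Fintype.card ↥(D w.1) - 1)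
    have hcA0 : 0 ≤ cA := Finset.prod_nonneg fun _ _ => by positivity
    have hbound1 : (F.card : ℝ) ≤ cA * ∑ σ ∈ s, ∏ w ∈ C.attach, ZZ (σ w.1 w.2) := by
      have h0 : F.card = ∑ σ ∈ s, (F.filter (fun φ => sig φ = σ)).card :=
        Finset.card_eq_sum_card_fiberwise hmaps
      rw [h0, Nat.cast_sum, Finset.mul_sum]
      apply Finset.sum_le_sum
      intro σ hσ
      calc ((F.filter (fun φ => sig φ = σ)).card : ℝ)
          ≤ ∏ w ∈ C.attach, ((Fam S par (πw w) (zw w) (σ w.1 w.2)).card : ℝ) := hfib σ hσ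
        _ ≤ ∏ w ∈ C.attach, (A ^ (Fintype.card ↥(D w.1) - 1) * ZZ (σ w.1 w.2)) := by
            apply Finset.prod_le_prod
            · intro _ _; exact Nat.cast_nonneg _
            · intro w _; exact hsub w _
        _ = cA * ∏ w ∈ C.attach, ZZ (σ w.1 w.2) := by
            rw [Finset.prod_mul_distrib]
    have hbound2 : ∑ σ ∈ s, ∏ w ∈ C.attach, ZZ (σ w.1 w.2) ≤
        (C.card.factorial : ℝ) * ∑ T ∈ (Vale.Agent.Lib.P064Q.kids S par t).powerset.filter
          (fun T => T.card = C.card), ∏ v ∈ T, ZZ v := by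
      convert sum_inj_le C (Vale.Agent.Lib.P064Q.kids S par t) ZZ hZZ0
    have hZexp : Zk (Vale.Agent.Lib.P064Q.kids S par) (1 / A) (K + 1 + 1) t =
        ∑ T ∈ (Vale.Agent.Lib.P064Q.kids S par t).powerset,
          (T.card.factorial : ℝ) * (1 / A) ^ T.card * ∏ v ∈ T, ZZ v := rfl
    have hpow : A ^ (Fintype.card β - 1) * (1 / A) ^ C.card = cA := by
      have hsum : Fintype.card β - 1 = ∑ w ∈ C.attach, (Fintype.card ↥(D w.1) - 1) + C.card := by
        have h1 : ∀ w : ↥C, Fintype.card ↥(D w.1) - 1 + 1 = (D w.1).card := by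
          intro w
          have : 0 < (D w.1).card := Finset.card_pos.mpr ⟨w.1, hself w.1⟩
          rw [Fintype.card_coe]
          omega
        have h2 : ∑ w ∈ C.attach, (D w.1).card = ∑ w ∈ C, (D w).card :=
          Finset.sum_attach C (fun w => (D w).card)
        have h3 : ∑ w ∈ C.attach, (Fintype.card ↥(D w.1) - 1 + 1) =
            ∑ w ∈ C.attach, (D w.1).card := Finset.sum_congr rfl fun w _ => h1 w
        rw [Finset.sum_add_distrib, Finset.sum_const, Finset.card_attach, smul_eq_mul, mul_one] at h3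
        omega
      rw [hsum, pow_add]
      have : cA = A ^ (∑ w ∈ C.attach, (Fintype.card ↥(D w.1) - 1)) :=
        Finset.prod_pow_eq_pow_sum _ _ _
      rw [this, mul_assoc, ← mul_pow, mul_one_div_cancel hA.ne', one_pow, mul_one]
    show (F.card : ℝ) ≤ A ^ (Fintype.card β - 1) *
      Zk (Vale.Agent.Lib.P064Q.kids S par) (1 / A) (K + 1 + 1) t
    rw [hZexp]
    calc (F.card : ℝ) ≤ cA * ∑ σ ∈ s, ∏ w ∈ C.attach, ZZ (σ w.1 w.2) := hbound1
      _ ≤ cA * ((C.card.factorial : ℝ) * ∑ T ∈ (Vale.Agent.Lib.P064Q.kids S par t).powerset.filter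
            (fun T => T.card = C.card), ∏ v ∈ T, ZZ v) :=
          mul_le_mul_of_nonneg_left hbound2 hcA0
      _ = A ^ (Fintype.card β - 1) * ∑ T ∈ (Vale.Agent.Lib.P064Q.kids S par t).powerset.filter
            (fun T => T.card = C.card),
            (T.card.factorial : ℝ) * (1 / A) ^ T.card * ∏ v ∈ T, ZZ v := by
          rw [← hpow, Finset.mul_sum, Finset.mul_sum, Finset.mul_sum]
          apply Finset.sum_congr rfl
          intro T hT
          rw [(Finset.mem_filter.mp hT).2]
          ring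
      _ ≤ A ^ (Fintype.card β - 1) * ∑ T ∈ (Vale.Agent.Lib.P064Q.kids S par t).powerset,
            (T.card.factorial : ℝ) * (1 / A) ^ T.card * ∏ v ∈ T, ZZ v := by
          apply mul_le_mul_of_nonneg_left _ (by positivity)
          apply Finset.sum_le_sum_of_subset_of_nonneg (Finset.filter_subset _ _)
          intro T _ _
          have : 0 ≤ ∏ v ∈ T, ZZ v := Finset.prod_nonneg fun v _ => hZZ0 v
          positivity

/-- Part B2. The rooted embeddings of a rooted tree `(β, π, z)` into the forest with image going down from `t`,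
`A > 0`, `K` at least all depths of the tree. -/
theorem count_le {S : Finset V} {par : V → V} {β : Type} [Fintype β] {π : β → β} {z : β} {rG : β → ℕ}
    (hπz : π z = z) (hπ : ∀ y, y ≠ z → rG (π y) < rG y) {A : ℝ} (hA : 0 < A) {K : ℕ}
    (hK : ∀ y, rG y ≤ K) (t : V) :
    (((univ : Finset (β → V)).filter fun φ => Function.Injective φ ∧ φ z = t ∧
        ∀ y, y ≠ z → φ y ∉ S ∧ par (φ y) = φ (π y)).card : ℝ) ≤
      A ^ (Fintype.card β - 1) * Zk (Vale.Agent.Lib.P064Q.kids S par) (1 / A) (K + 1) t :=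
  count_aux S par hA K β π z rG hπz hπ hK t

end Vale.Agent.Lib.P064F
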