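import Vale.Agent.Lib.P064F.Basic

/-!
The optimal down-trees (notes/P064F_blueprint.md, parts C1, C2).
-/

open Finset

namespace Vale.Agent.Lib.P064F

open scoped Classical

variable {V : Type} [Fintype V]

/-- The weight of a set of children. -/
noncomputable def wt (a : ℝ) (T : Finset V) : ℝ := (T.card.factorial : ℝ) * a ^ T.card

/-- The fuel approximation of the optimal weight. -/
noncomputable def Rfuel (A : V → Finset V) (a : ℝ) : ℕ → V → ℝ
  | 0, _ => 1
  | k + 1, x => (A x).powerset.sup' ⟨∅, Finset.empty_mem_powerset _⟩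
      (fun T => wt a T * ∏ v ∈ T, Rfuel A a k v)

lemma Rfuel_stable (A : V → Finset V) (ρ : V → ℕ) (hρ : ∀ x, ∀ v ∈ A x, ρ v < ρ x) (a : ℝ) (k : ℕ) :
    ∀ x, ρ x ≤ k → Rfuel A a (k + 1) x = Rfuel A a (k + 2) x := by
  induction k with
  | zero =>
    intro x hx
    show (A x).powerset.sup' _ _ = (A x).powerset.sup' _ _
    refine Finset.sup'_congr _ rfl (fun T hT => ?_)
    congr 1
    refine Finset.prod_congr rfl (fun v hv => ?_)
    have := hρ x v (Finset.mem_powerset.1 hT hv)
    omega
  | succ k ih =>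
    intro x hx
    show (A x).powerset.sup' _ _ = (A x).powerset.sup' _ _
    refine Finset.sup'_congr _ rfl (fun T hT => ?_)
    congr 1
    refine Finset.prod_congr rfl (fun v hv => ?_)
    have := hρ x v (Finset.mem_powerset.1 hT hv)
    exact ih v (by omega)

/-- Part C1: a solution of the fixed point equation with an optimal choice of children.
`A x` the children of `x`; `ρ` decreases from `x` to its children. -/
theorem exists_fix (A : V → Finset V) (ρ : V → ℕ) (hρ : ∀ x, ∀ v ∈ A x, ρ v < ρ x) {a : ℝ} (ha : 0 < a) :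
    ∃ (R : V → ℝ) (T : V → Finset V),
      (∀ x, T x ⊆ A x) ∧
      (∀ x, R x = wt a (T x) * ∏ v ∈ T x, R v) ∧
      (∀ x, ∀ T', T' ⊆ A x → wt a T' * ∏ v ∈ T', R v ≤ R x) ∧
      (∀ x, 1 ≤ R x) := by
  set N := (univ : Finset V).sup ρ with hN
  set R : V → ℝ := Rfuel A a (N + 1) with hRdef
  have hρN : ∀ x, ρ x ≤ N := fun x => Finset.le_sup (f := ρ) (Finset.mem_univ x)
  have hR : ∀ x, R x = (A x).powerset.sup' ⟨∅, Finset.empty_mem_powerset _⟩
      (fun T => wt a T * ∏ v ∈ T, R v) := fun x => Rfuel_stable A ρ hρ a N x (hρN x)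
  have hex : ∀ x, ∃ T ∈ (A x).powerset, R x = wt a T * ∏ v ∈ T, R v := by
    intro x
    obtain ⟨T, hT, hTe⟩ := Finset.exists_mem_eq_sup' (s := (A x).powerset)
      ⟨∅, Finset.empty_mem_powerset _⟩ (fun T => wt a T * ∏ v ∈ T, R v)
    exact ⟨T, hT, (hR x).trans hTe⟩
  choose T hT1 hT2 using hex
  have hle : ∀ x, ∀ T', T' ⊆ A x → wt a T' * ∏ v ∈ T', R v ≤ R x := by
    intro x T' hT'
    rw [hR x]
    exact Finset.le_sup' (fun T => wt a T * ∏ v ∈ T, R v) (Finset.mem_powerset.2 hT')
  refine ⟨R, T, fun x => Finset.mem_powerset.1 (hT1 x), hT2, hle, fun x => ?_⟩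
  have := hle x ∅ (Finset.empty_subset _)
  simpa [wt] using this

/-- The selected-child relation. -/
def Sel (T : V → Finset V) (x y : V) : Prop := y ∈ T x

/-- The down-tree of `x`: everything reached through selected children. -/
noncomputable def Ft (T : V → Finset V) (x : V) : Finset V :=
  univ.filter fun y => Relation.ReflTransGen (Sel T) x y

variable {T : V → Finset V} {S : Finset V} {par : V → V} {r : V → ℕ}

/-- Hypotheses on the selection: children of a rooted forest. -/
structure SelHyp (T : V → Finset V) (S : Finset V) (par : V → V) (r : V → ℕ) : Prop where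
  rank : ∀ y, y ∉ S → r (par y) < r y
  sub : ∀ x, T x ⊆ Vale.Agent.Lib.P064Q.kids S par x

/-- Part C2. -/
theorem self_mem_Ft (x : V) : x ∈ Ft T x :=
  Finset.mem_filter.2 ⟨Finset.mem_univ _, Relation.ReflTransGen.refl⟩

lemma mem_Ft {x y : V} : y ∈ Ft T x ↔ Relation.ReflTransGen (Sel T) x y := by
  simp [Ft]

lemma sel_par (h : SelHyp T S par r) {b c : V} (hc : c ∈ T b) : c ∉ S ∧ par c = b :=
  (Finset.mem_filter.1 (h.sub b hc)).2

lemma rank_gen (h : SelHyp T S par r) {x y : V} (hxy : Relation.ReflTransGen (Sel T) x y) :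
    r x ≤ r y ∧ (y ≠ x → r x < r y) := by
  induction hxy with
  | refl => exact ⟨le_refl _, fun hne => absurd rfl hne⟩
  | tail _ hbc ih =>
    obtain ⟨hc, hp⟩ := sel_par h hbc
    have hlt := h.rank _ hc
    rw [hp] at hlt
    exact ⟨by omega, fun _ => by omega⟩

lemma not_mem_child (h : SelHyp T S par r) {x v : V} (hv : v ∈ T x) : x ∉ Ft T v := by
  intro hx
  obtain ⟨hc, hp⟩ := sel_par h hv
  have hlt := h.rank _ hc
  rw [hp] at hlt
  have := (rank_gen h (mem_Ft.1 hx)).1
  omega

lemma comparable (h : SelHyp T S par r) {x x' y : V} (hx : y ∈ Ft T x) (hx' : y ∈ Ft T x') :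
    x' ∈ Ft T x ∨ x ∈ Ft T x' := by
  have hU : Relator.RightUnique (Function.swap (Sel T)) := by
    intro a b c hab hac
    have h1 := (sel_par h hab).2
    have h2 := (sel_par h hac).2
    exact h1.symm.trans h2
  have h1 : Relation.ReflTransGen (Function.swap (Sel T)) y x :=
    Relation.reflTransGen_swap.2 (mem_Ft.1 hx)
  have h2 : Relation.ReflTransGen (Function.swap (Sel T)) y x' :=
    Relation.reflTransGen_swap.2 (mem_Ft.1 hx')
  rcases Relation.ReflTransGen.total_of_right_unique hU h1 h2 with h3 | h3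
  · right
    exact mem_Ft.2 (Relation.reflTransGen_swap.1 h3)
  · left
    exact mem_Ft.2 (Relation.reflTransGen_swap.1 h3)

/-- Part C2. `Ft x = {x} ⊔ ⨆_{v ∈ T x} Ft v`, disjoint. -/
theorem Ft_eq (h : SelHyp T S par r) (x : V) :
    Ft T x = insert x ((T x).biUnion (Ft T)) ∧ x ∉ (T x).biUnion (Ft T) ∧
      ∀ v ∈ T x, ∀ v' ∈ T x, v ≠ v' → Disjoint (Ft T v) (Ft T v') := by
  refine ⟨?_, ?_, ?_⟩
  · ext y
    simp only [Finset.mem_insert, Finset.mem_biUnion, mem_Ft]
    constructor
    · intro hy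
      rcases Relation.ReflTransGen.cases_head hy with e | ⟨c, hc, hcy⟩
      · exact Or.inl e.symm
      · exact Or.inr ⟨c, hc, hcy⟩
    · rintro (e | ⟨v, hv, hvy⟩)
      · rw [e]
      · exact Relation.ReflTransGen.head hv hvy
  · intro hx
    obtain ⟨v, hv, hxv⟩ := Finset.mem_biUnion.1 hx
    exact not_mem_child h hv hxv
  · intro v hv v' hv' hne
    rw [Finset.disjoint_left]
    intro y hy hy'
    have hvx := (sel_par h hv).2
    have hvx' := (sel_par h hv').2
    rcases comparable h hy hy' with hc | hc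
    · -- `v' ∈ Ft v`, `v' ≠ v`
      have h1 : v' ≠ v := fun e => hne e.symm
      rcases Relation.ReflTransGen.cases_tail (mem_Ft.1 hc) with e | ⟨c, hc1, hc2⟩
      · exact h1 e
      · have hc3 := (sel_par h hc2).2
        have hcx : c = x := hc3.symm.trans hvx'
        rw [hcx] at hc1
        exact not_mem_child h hv (mem_Ft.2 hc1)
    · rcases Relation.ReflTransGen.cases_tail (mem_Ft.1 hc) with e | ⟨c, hc1, hc2⟩
      · exact hne e
      · have hc3 := (sel_par h hc2).2
        have hcx : c = x := hc3.symm.trans hvx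
        rw [hcx] at hc1
        exact not_mem_child h hv' (mem_Ft.2 hc1)

/-- Part C2. A vertex of `Ft x` other than `x` is a selected child of its parent, which is in `Ft x`. -/
theorem Ft_par (h : SelHyp T S par r) {x y : V} (hy : y ∈ Ft T x) (hne : y ≠ x) :
    y ∉ S ∧ par y ∈ Ft T x ∧ y ∈ T (par y) := by
  rcases Relation.ReflTransGen.cases_tail (mem_Ft.1 hy) with e | ⟨c, hc1, hc2⟩
  · exact absurd e hne
  · obtain ⟨h1, h2⟩ := sel_par h hc2
    refine ⟨h1, ?_, ?_⟩
    · rw [h2]; exact mem_Ft.2 hc1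
    · rw [h2]; exact hc2

/-- Part C2. Selected children stay inside. -/
theorem Ft_child {x y v : V} (hy : y ∈ Ft T x) (hv : v ∈ T y) : v ∈ Ft T x :=
  mem_Ft.2 (Relation.ReflTransGen.tail (mem_Ft.1 hy) hv)

lemma Ft_subset {x x' : V} (hx' : x' ∈ Ft T x) : Ft T x' ⊆ Ft T x := by
  intro y hy
  exact mem_Ft.2 ((mem_Ft.1 hx').trans (mem_Ft.1 hy))

lemma card_lt_of_mem (h : SelHyp T S par r) {x x' : V} (hne : x' ≠ x) (hx' : x' ∈ Ft T x) :
    (Ft T x').card < (Ft T x).card := by
  refine Finset.card_lt_card ⟨Ft_subset hx', fun hsub => ?_⟩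
  have hx : x ∈ Ft T x' := hsub (self_mem_Ft x)
  have h1 := (rank_gen h (mem_Ft.1 hx')).2 hne
  have h2 := (rank_gen h (mem_Ft.1 hx)).1
  omega

/-- Part C2. Two down-trees of the same size are equal or disjoint roots. -/
theorem Ft_disjoint (h : SelHyp T S par r) {x x' : V} (hne : x ≠ x')
    (hc : (Ft T x).card = (Ft T x').card) : Disjoint (Ft T x) (Ft T x') := by
  rw [Finset.disjoint_left]
  intro y hy hy'
  rcases comparable h hy hy' with h1 | h1
  · have := card_lt_of_mem h hne.symm h1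
    omega
  · have := card_lt_of_mem h hne h1
    omega

/-- Part C2. The product formula. -/
theorem prod_Ft (h : SelHyp T S par r) {a : ℝ} {R : V → ℝ}
    (hR : ∀ x, R x = wt a (T x) * ∏ v ∈ T x, R v) (x : V) :
    R x = ∏ y ∈ Ft T x, wt a (T y) := by
  induction hn : (Ft T x).card using Nat.strong_induction_on generalizing x with
  | _ n ih =>
    obtain ⟨h1, h2, h3⟩ := Ft_eq h x
    have hlt : ∀ v ∈ T x, (Ft T v).card < n := by
      intro v hv
      rw [← hn]
      refine card_lt_of_mem h ?_ (Relation.ReflTransGen.single hv |> mem_Ft.2)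
      intro e
      exact not_mem_child h hv (e ▸ self_mem_Ft v)
    have hprod : ∏ v ∈ T x, R v = ∏ v ∈ T x, ∏ y ∈ Ft T v, wt a (T y) :=
      Finset.prod_congr rfl (fun v hv => ih _ (hlt v hv) v rfl)
    rw [hR x, hprod, h1, Finset.prod_insert h2, Finset.prod_biUnion]
    intro v hv v' hv' hne
    exact h3 v hv v' hv' hne

/-- Part C2. The number of edges. -/
theorem sum_card_T (h : SelHyp T S par r) (x : V) :
    ∑ y ∈ Ft T x, (T y).card + 1 = (Ft T x).card := by
  induction hn : (Ft T x).card using Nat.strong_induction_on generalizing x with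
  | _ n ih =>
    obtain ⟨h1, h2, h3⟩ := Ft_eq h x
    have hlt : ∀ v ∈ T x, (Ft T v).card < n := by
      intro v hv
      rw [← hn]
      refine card_lt_of_mem h ?_ (Relation.ReflTransGen.single hv |> mem_Ft.2)
      intro e
      exact not_mem_child h hv (e ▸ self_mem_Ft v)
    have hcard : (Ft T x).card = 1 + ∑ v ∈ T x, (Ft T v).card := by
      rw [h1, Finset.card_insert_of_notMem h2, Finset.card_biUnion h3]
      omega
    have hsum : ∑ v ∈ T x, (Ft T v).card = ∑ v ∈ T x, (∑ y ∈ Ft T v, (T y).card + 1) :=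
      Finset.sum_congr rfl (fun v hv => (ih _ (hlt v hv) v rfl).symm)
    have hsum2 : ∑ y ∈ Ft T x, (T y).card
        = (T x).card + ∑ v ∈ T x, ∑ y ∈ Ft T v, (T y).card := by
      conv_lhs => rw [h1]
      rw [Finset.sum_insert h2, Finset.sum_biUnion]
      intro v hv v' hv' hne
      exact h3 v hv v' hv' hne
    rw [← hn, hcard, hsum, Finset.sum_add_distrib, hsum2]
    simp only [Finset.sum_const, smul_eq_mul, mul_one]
    omega

end Vale.Agent.Lib.P064F
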