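import Vale.Agent.Lib.P064F.Fix

/-!
Disjoint down-trees are rare (notes/P064F_blueprint.md, part D).
-/

open Finset

namespace Vale.Agent.Lib.P064F

open Vale.Agent.Lib.P064 Vale.Agent.Lib.P064E Vale.Agent.Lib.P064U Vale.Agent.Lib.P064Q
open scoped Classical

variable {V : Type} [Fintype V]

/-- Rank grows along a down-tree. -/
private lemma Ft_rank {T : V → Finset V} {S : Finset V} {par : V → V} {r : V → ℕ}
    (hT : SelHyp T S par r) {x y : V} (hy : y ∈ Ft T x) : r x ≤ r y := by
  have key : ∀ y, Relation.ReflTransGen (Sel T) x y → r x ≤ r y := by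
    intro y h
    induction h with
    | refl => exact le_rfl
    | tail _ hbc ih =>
      have h1 := hT.sub _ hbc
      simp only [kids, mem_filter, mem_univ, true_and] at h1
      have h2 := hT.rank _ h1.1
      rw [h1.2] at h2
      omega
  apply key
  simpa [Ft] using hy

/-- The parent map with a super root. -/
private noncomputable def parO (B U : Finset V) (par : V → V) : Option ↥U → Option ↥U
  | none => none
  | some a => if a.1 ∈ B then none else if h : par a.1 ∈ U then some ⟨par a.1, h⟩ else none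

/-- The rank with a super root. -/
private def rO {U : Finset V} (r : V → ℕ) : Option ↥U → ℕ
  | none => 0
  | some a => r a.1 + 1

/-- The automorphisms of a graph. -/
private def autW {γ : Type} (W : SimpleGraph γ) : Subgroup (Equiv.Perm γ) where
  carrier := {τ | ∀ a b, W.Adj a b ↔ W.Adj (τ a) (τ b)}
  mul_mem' := by
    intro σ τ hσ hτ a b
    exact (hτ a b).trans (hσ (τ a) (τ b))
  one_mem' := fun _ _ => Iff.rfl
  inv_mem' := by
    intro σ hσ a b
    have := hσ (σ⁻¹ a) (σ⁻¹ b)
    simpa using this.symm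

private lemma some_removeNone {γ : Type} (σ : Equiv.Perm (Option γ)) (h : σ none = none) (x : γ) :
    σ (some x) = some (Equiv.removeNone σ x) := by
  have h1 : σ (some x) ≠ none := by
    intro hc
    have := σ.injective (hc.trans h.symm)
    simp at this
  obtain ⟨x', hx'⟩ := Option.ne_none_iff_exists'.1 h1
  exact (Equiv.removeNone_some σ ⟨x', hx'⟩).symm

private lemma card_forest_le {γ : Type} [Fintype γ] (P : Option γ → Option γ) :
    Nat.card (forestGroup ({none} : Finset (Option γ)) P) ≤
      Nat.card (autW (SimpleGraph.fromRel (fun a b : γ => P (some a) = some b))) := by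
  set W := SimpleGraph.fromRel (fun a b : γ => P (some a) = some b) with hW
  have hfix : ∀ σ ∈ forestGroup ({none} : Finset (Option γ)) P, σ none = none := by
    intro σ hσ
    exact hσ.1 none (by simp)
  have hmem : ∀ σ ∈ forestGroup ({none} : Finset (Option γ)) P,
      Equiv.removeNone σ ∈ autW W := by
    intro σ hσ a b
    have hrel : ∀ a b : γ, P (some a) = some b ↔
        P (some (Equiv.removeNone σ a)) = some (Equiv.removeNone σ b) := by
      intro a b
      rw [← some_removeNone σ (hfix σ hσ) a, ← some_removeNone σ (hfix σ hσ) b, ← hσ.2 (some a),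
        EmbeddingLike.apply_eq_iff_eq]
    simp only [hW, SimpleGraph.fromRel_adj, ne_eq, (Equiv.removeNone σ).injective.eq_iff]
    rw [hrel a b, hrel b a]
  refine Nat.card_le_card_of_injective
    (fun σ => (⟨Equiv.removeNone σ.1, hmem σ.1 σ.2⟩ : autW W)) ?_
  intro σ σ' h
  have h1 : Equiv.removeNone σ.1 = Equiv.removeNone σ'.1 := congrArg Subtype.val h
  apply Subtype.ext
  ext1 y
  cases y with
  | none => rw [hfix σ.1 σ.2, hfix σ'.1 σ'.2]
  | some y => rw [some_removeNone σ.1 (hfix σ.1 σ.2), some_removeNone σ'.1 (hfix σ'.1 σ'.2), h1]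

/-- Part D. The forest `⊔_{x ∈ B} Ft x` with a super root: `forest_aut` on `Option U`, `copies_group_bound` with `h = 1`. -/
theorem rare {H : SimpleGraph V} {S : Finset V} {par : V → V} {r : V → ℕ} {n : ℕ} {q : ℝ}
    (hRF : RF H S par r) (hG : GoodDensity n q H) (hq0 : 0 < q) (hq1 : q ≤ 1) {T : V → Finset V}
    (hT : SelHyp T S par r) (B : Finset V)
    (hdis : ∀ x ∈ B, ∀ x' ∈ B, x ≠ x' → Disjoint (Ft T x) (Ft T x')) (E : ℕ)
    (hE : ∑ x ∈ B, ∑ y ∈ Ft T x, (T y).card = E) (hE1 : 1 ≤ E) :
    (B.card.factorial : ℝ) * ∏ x ∈ B, ∏ y ∈ Ft T x, ((T y).card.factorial : ℝ) ≤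
      Real.exp 1 * (4 : ℝ) ^ (B.card + E + 1) * ((n : ℝ) ^ B.card * ((n : ℝ) * q) ^ E) := by
  classical
  set U := B.biUnion (Ft T) with hU
  have hpd : (B : Set V).PairwiseDisjoint (Ft T) := fun x hx x' hx' hne => hdis x hx x' hx' hne
  have hcardU : U.card = B.card + E := by
    rw [hU, card_biUnion hdis, ← hE, add_comm, Finset.card_eq_sum_ones B, ← Finset.sum_add_distrib]
    exact Finset.sum_congr rfl fun x _ => (sum_card_T hT x).symm
  have hBU : B ⊆ U := fun x hx => mem_biUnion.2 ⟨x, hx, self_mem_Ft x⟩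
  -- non-roots
  have hnr : ∀ a ∈ U, a ∉ B → a ∉ S ∧ par a ∈ U ∧ a ∈ T (par a) := by
    intro a ha haB
    obtain ⟨x, hx, hax⟩ := mem_biUnion.1 ha
    have hne : a ≠ x := fun h => haB (h ▸ hx)
    obtain ⟨h1, h2, h3⟩ := Ft_par hT hax hne
    exact ⟨h1, mem_biUnion.2 ⟨x, hx, h2⟩, h3⟩
  -- selected children of vertices of `U`
  have hch : ∀ y ∈ U, ∀ v ∈ T y, v ∈ U ∧ v ∉ B ∧ v ∉ S ∧ par v = y := by
    intro y hy v hv
    obtain ⟨x, hx, hyx⟩ := mem_biUnion.1 hy
    have hvx := Ft_child hyx hv
    have h1 := hT.sub _ hv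
    simp only [kids, mem_filter, mem_univ, true_and] at h1
    refine ⟨mem_biUnion.2 ⟨x, hx, hvx⟩, ?_, h1.1, h1.2⟩
    intro hvB
    by_cases hvxe : v = x
    · subst hvxe
      have h2 := Ft_rank hT hyx
      have h3 := hT.rank v h1.1
      rw [h1.2] at h3
      omega
    · exact (Finset.disjoint_left.1 (hdis v hvB x hx hvxe)) (self_mem_Ft v) hvx
  set P : Option ↥U → Option ↥U := parO B U par with hP
  have hPnone : P none = none := rfl
  have hPB : ∀ a : ↥U, a.1 ∈ B → P (some a) = none := by
    intro a ha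
    simp [hP, parO, ha]
  have hPn : ∀ (a : ↥U) (ha : a.1 ∉ B), P (some a) = some ⟨par a.1, (hnr a.1 a.2 ha).2.1⟩ := by
    intro a ha
    have h1 := (hnr a.1 a.2 ha).2.1
    simp [hP, parO, ha, h1]
  -- the forest on `Option U`
  have hr : ∀ y, y ∉ ({none} : Finset (Option ↥U)) → rO r (P y) < rO r y := by
    intro y hy
    cases y with
    | none => simp at hy
    | some a =>
      by_cases ha : a.1 ∈ B
      · rw [hPB a ha]
        simp [rO]
      · rw [hPn a ha]
        have h1 := (hnr a.1 a.2 ha).1
        have h2 := hT.rank a.1 h1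
        simp [rO, h2]
  have hS : ∀ y ∈ ({none} : Finset (Option ↥U)), P y = y := by
    intro y hy
    rw [mem_singleton] at hy
    subst hy
    rfl
  have hfa := forest_aut ({none} : Finset (Option ↥U)) P (rO r) hS hr
  -- the children
  have hknone : (kids ({none} : Finset (Option ↥U)) P none).card = B.card := by
    symm
    refine Finset.card_bij (fun x hx => some ⟨x, hBU hx⟩) ?_ ?_ ?_
    · intro x hx
      simp only [kids, mem_filter, mem_univ, true_and, mem_singleton]
      exact ⟨by simp, hPB ⟨x, hBU hx⟩ hx⟩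
    · intro x _ x' _ h
      simpa using h
    · intro u hu
      simp only [kids, mem_filter, mem_univ, true_and, mem_singleton] at hu
      cases u with
      | none => simp at hu
      | some a =>
        by_cases ha : a.1 ∈ B
        · exact ⟨a.1, ha, rfl⟩
        · have := hu.2
          rw [hPn a ha] at this
          simp at this
  have hksome : ∀ y : ↥U, (kids ({none} : Finset (Option ↥U)) P (some y)).card = (T y.1).card := by
    intro y
    symm
    refine Finset.card_bij (fun v hv => some ⟨v, (hch y.1 y.2 v hv).1⟩) ?_ ?_ ?_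
    · intro v hv
      simp only [kids, mem_filter, mem_univ, true_and, mem_singleton]
      obtain ⟨h1, h2, h3, h4⟩ := hch y.1 y.2 v hv
      refine ⟨by simp, ?_⟩
      rw [hPn ⟨v, h1⟩ h2]
      congr 1
      exact Subtype.ext h4
    · intro x _ x' _ h
      simpa using h
    · intro u hu
      simp only [kids, mem_filter, mem_univ, true_and, mem_singleton] at hu
      cases u with
      | none => simp at hu
      | some a =>
        by_cases ha : a.1 ∈ B
        · have := hu.2
          rw [hPB a ha] at this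
          simp at this
        · have h1 := hu.2
          rw [hPn a ha] at h1
          have h2 : par a.1 = y.1 := by
            have := Option.some.inj h1
            exact congrArg Subtype.val this
          have h3 := (hnr a.1 a.2 ha).2.2
          rw [h2] at h3
          exact ⟨a.1, h3, rfl⟩
  have hprod : ∏ y : Option ↥U, ((kids ({none} : Finset (Option ↥U)) P y).card).factorial =
      B.card.factorial * ∏ x ∈ B, ∏ y ∈ Ft T x, (T y).card.factorial := by
    rw [Fintype.prod_option, hknone]
    congr 1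
    rw [← Finset.prod_biUnion hdis]
    rw [← hU]
    rw [← Finset.prod_coe_sort U (fun y => (T y).card.factorial)]
    exact Finset.prod_congr rfl fun y _ => by rw [hksome y]
  -- the graph
  set W := SimpleGraph.fromRel (fun a b : ↥U => P (some a) = some b) with hW
  have hcard := card_forest_le P
  -- the edges
  have hadj : ∀ (a : ↥U) (ha : a.1 ∉ B), W.Adj a ⟨par a.1, (hnr a.1 a.2 ha).2.1⟩ := by
    intro a ha
    rw [hW, SimpleGraph.fromRel_adj]
    refine ⟨?_, Or.inl (hPn a ha)⟩
    intro h
    have h1 := hT.rank a.1 (hnr a.1 a.2 ha).1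
    have h2 : a.1 = par a.1 := congrArg Subtype.val h
    rw [← h2] at h1
    exact lt_irrefl _ h1
  have hhom : ∀ a b : ↥U, W.Adj a b → H.Adj a.1 b.1 := by
    have h1 : ∀ a b : ↥U, P (some a) = some b → H.Adj a.1 b.1 := by
      intro a b h
      by_cases ha : a.1 ∈ B
      · rw [hPB a ha] at h
        simp at h
      · rw [hPn a ha] at h
        have h2 : par a.1 = b.1 := congrArg Subtype.val (Option.some.inj h)
        rw [← h2]
        exact hRF.adj a.1 (hnr a.1 a.2 ha).1
    intro a b h
    rw [hW, SimpleGraph.fromRel_adj] at h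
    rcases h.2 with h2 | h2
    · exact h1 a b h2
    · exact (h1 b a h2).symm
  set NU : Finset ↥U := univ.filter fun a => a.1 ∉ B with hNU
  have hNUc : NU.card = E := by
    have h1 : NU.card = (U \ B).card := by
      refine Finset.card_bij (fun a _ => a.1) ?_ ?_ ?_
      · intro a ha
        simp only [hNU, mem_filter, mem_univ, true_and] at ha
        exact mem_sdiff.2 ⟨a.2, ha⟩
      · intro a _ b _ h
        exact Subtype.ext h
      · intro y hy
        obtain ⟨h1, h2⟩ := mem_sdiff.1 hy
        exact ⟨⟨y, h1⟩, by simp [hNU, h2], rfl⟩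
    rw [h1, card_sdiff_of_subset hBU, hcardU]
    omega
  have hEn : E ≤ W.edgeSet.ncard := by
    let pp : ↥U → ↥U := fun a => if h : par a.1 ∈ U then ⟨par a.1, h⟩ else a
    have hpp : ∀ (a : ↥U) (ha : a.1 ∉ B), pp a = ⟨par a.1, (hnr a.1 a.2 ha).2.1⟩ := by
      intro a ha
      have h1 := (hnr a.1 a.2 ha).2.1
      simp [pp, h1]
    let g : ↥U → Sym2 ↥U := fun a => s(a, pp a)
    have hinj : Set.InjOn g NU := by
      intro a ha b hb hab
      have ha' : a.1 ∉ B := by simpa [hNU] using ha
      have hb' : b.1 ∉ B := by simpa [hNU] using hb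
      have h1 : s(a, pp a) = s(b, pp b) := hab
      rw [Sym2.eq_iff] at h1
      rcases h1 with h1 | h1
      · exact h1.1
      · exfalso
        have h2 := h1.1
        have h3 := h1.2
        rw [hpp b hb'] at h2
        rw [hpp a ha'] at h3
        have h4 : a.1 = par b.1 := congrArg Subtype.val h2
        have h5 : par a.1 = b.1 := congrArg Subtype.val h3
        have h6 := hT.rank a.1 (hnr a.1 a.2 ha').1
        have h7 := hT.rank b.1 (hnr b.1 b.2 hb').1
        rw [h5] at h6
        rw [← h4] at h7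
        omega
    have hsub : ((NU.image g : Finset (Sym2 ↥U)) : Set (Sym2 ↥U)) ⊆ W.edgeSet := by
      intro e he
      obtain ⟨a, ha, rfl⟩ := Finset.mem_image.1 (Finset.mem_coe.1 he)
      have ha' : a.1 ∉ B := by simpa [hNU] using ha
      change s(a, pp a) ∈ W.edgeSet
      rw [SimpleGraph.mem_edgeSet, hpp a ha']
      exact hadj a ha'
    have h1 := Set.ncard_le_ncard hsub (Set.toFinite _)
    rw [Set.ncard_coe_finset, Finset.card_image_of_injOn hinj, hNUc] at h1
    exact h1
  have hWne : W.edgeSet.Nonempty := by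
    apply Set.nonempty_of_ncard_ne_zero
    omega
  have hcopies := copies_group_bound hG hq0 hq1 W hWne (autW W)
    (fun σ hσ a b h => (hσ a b).1 h) (h := 1) le_rfl (fun _ a => a.1)
    (fun _ => Subtype.val_injective) (fun _ a b h => hhom a b h)
    (fun i j hij => absurd (Subsingleton.elim i j) hij)
  rw [Fintype.card_coe, hcardU] at hcopies
  have hq : q ^ W.edgeSet.ncard ≤ q ^ E := pow_le_pow_of_le_one hq0.le hq1 hEn
  have hcop2 : (Nat.card (autW W) : ℝ) ≤
      Real.exp 1 * ((n : ℝ) ^ (B.card + E) * q ^ E) := by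
    have h1 : ((1 : ℕ) : ℝ) * (Nat.card (autW W) : ℝ) = (Nat.card (autW W) : ℝ) := by simp
    rw [h1] at hcopies
    refine hcopies.trans ?_
    gcongr
  have hfaR : (B.card.factorial : ℝ) * ∏ x ∈ B, ∏ y ∈ Ft T x, ((T y).card.factorial : ℝ) ≤
      (Nat.card (autW W) : ℝ) * (4 : ℝ) ^ (B.card + E + 1) := by
    have h1 : B.card.factorial * ∏ x ∈ B, ∏ y ∈ Ft T x, (T y).card.factorial ≤
        Nat.card (autW W) * 4 ^ (B.card + E + 1) := by
      rw [← hprod]
      refine hfa.trans ?_
      rw [Fintype.card_option, Fintype.card_coe, hcardU]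
      exact Nat.mul_le_mul_right _ hcard
    exact_mod_cast h1
  calc (B.card.factorial : ℝ) * ∏ x ∈ B, ∏ y ∈ Ft T x, ((T y).card.factorial : ℝ)
      ≤ (Nat.card (autW W) : ℝ) * (4 : ℝ) ^ (B.card + E + 1) := hfaR
    _ ≤ (Real.exp 1 * ((n : ℝ) ^ (B.card + E) * q ^ E)) * (4 : ℝ) ^ (B.card + E + 1) :=
        mul_le_mul_of_nonneg_right hcop2 (by positivity)
    _ = Real.exp 1 * (4 : ℝ) ^ (B.card + E + 1) * ((n : ℝ) ^ B.card * ((n : ℝ) * q) ^ E) := by
        rw [pow_add (n : ℝ), mul_pow]
        ring

end Vale.Agent.Lib.P064F
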