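import Vale.Agent.Lib.P064Q.Forest

/-!
Restricting the automorphisms of a forest with a super root (notes/P064F_blueprint.md, part D).
-/

open Finset

namespace Vale.Agent.Lib.P064F

open Vale.Agent.Lib.P064Q
open scoped Classical

variable {U : Type} [Fintype U]

/-- The extension of permutations to `Option`, as a group homomorphism. -/
noncomputable def optHom : Equiv.Perm U →* Equiv.Perm (Option U) where
  toFun τ := Equiv.optionCongr τ
  map_one' := by
    ext x
    cases x <;> simp
  map_mul' σ τ := by
    ext x
    cases x <;> simp

@[simp] lemma optHom_none (τ : Equiv.Perm U) : optHom τ none = none := rfl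

@[simp] lemma optHom_some (τ : Equiv.Perm U) (a : U) : optHom τ (some a) = some (τ a) := rfl

/-- The group acting on `U`. -/
noncomputable def restGroup (par : Option U → Option U) : Subgroup (Equiv.Perm U) :=
  (forestGroup {none} par).comap optHom

/-- The members preserve every graph whose edges are parent edges. -/
lemma restGroup_adj {par : Option U → Option U} {W : SimpleGraph U}
    (hW : ∀ a b, W.Adj a b ↔ a ≠ b ∧ (par (some a) = some b ∨ par (some b) = some a))
    {σ : Equiv.Perm U} (hσ : σ ∈ restGroup par) {a b : U} (hab : W.Adj a b) : W.Adj (σ a) (σ b) := by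
  have h : optHom σ ∈ forestGroup {none} par := hσ
  have h2 : ∀ y, optHom σ (par y) = par (optHom σ y) := h.2
  rw [hW] at hab ⊢
  obtain ⟨hne, h1 | h1⟩ := hab
  · refine ⟨fun e => hne (σ.injective e), Or.inl ?_⟩
    have := h2 (some a)
    rw [h1] at this
    simpa using this.symm
  · refine ⟨fun e => hne (σ.injective e), Or.inr ?_⟩
    have := h2 (some b)
    rw [h1] at this
    simpa using this.symm

/-- The forest group with the super root is not larger than the group on `U`. -/
lemma card_forestGroup_le (par : Option U → Option U) :
    Nat.card (forestGroup {none} par) ≤ Nat.card (restGroup par) := by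
  classical
  have hfix : ∀ σ : forestGroup {none} par, σ.1 none = none := fun σ => σ.2.1 none (by simp)
  have hext : ∀ σ : forestGroup {none} par, optHom (Equiv.removeNone σ.1) = σ.1 := by
    intro σ
    ext x
    cases x with
    | none => simp [hfix σ]
    | some a =>
      have h1 : σ.1 (some a) ≠ none := by
        intro e
        have h3 := hfix σ
        have : σ.1 (some a) = σ.1 none := by rw [e, h3]
        exact absurd (σ.1.injective this) (by simp)
      obtain ⟨b, hb⟩ := Option.ne_none_iff_exists'.1 h1
      have h4 := Equiv.removeNone_some σ.1 (x := a) (by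
        exact ⟨b, hb⟩)
      simp [optHom_some, h4, hb]
  let f : forestGroup {none} par → restGroup par := fun σ =>
    ⟨Equiv.removeNone σ.1, by
      show optHom (Equiv.removeNone σ.1) ∈ forestGroup {none} par
      rw [hext σ]
      exact σ.2⟩
  have hf : Function.Injective f := by
    intro σ τ h
    have h1 : Equiv.removeNone σ.1 = Equiv.removeNone τ.1 := congrArg Subtype.val h
    apply Subtype.ext
    rw [← hext σ, ← hext τ, h1]
  exact Nat.card_le_card_of_injective f hf

end Vale.Agent.Lib.P064F
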