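import Vale.Agent.Lib.P064F.Basic
import Vale.Agent.Lib.P064Q.Deco

/-!
Rooting a forest, top vertices of embedded graphs (notes/P064F_blueprint.md, parts F1, F2, F3).
-/

open Finset

namespace Vale.Agent.Lib.P064F

open Vale.Agent.Lib.P064 Vale.Agent.Lib.P064Q
open scoped Classical

variable {V : Type} [Fintype V]

/-- Two neighbours of `a` closer to `u` than `a` coincide, in an acyclic graph. -/
private lemma parent_unique {H : SimpleGraph V} (hH : H.IsAcyclic) {u a b b' : V}
    (hub : H.Reachable u b) (hub' : H.Reachable u b') (hb : H.Adj b a) (hb' : H.Adj b' a)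
    (hd : H.dist u b + 1 = H.dist u a) (hd' : H.dist u b' + 1 = H.dist u a) : b = b' := by
  obtain ⟨p, hp, hpl⟩ := hub.exists_path_of_dist
  obtain ⟨p', hp', hpl'⟩ := hub'.exists_path_of_dist
  have hua : H.Reachable u a := hub.trans hb.reachable
  -- a path to `a` has length the distance
  have hlen : ∀ w : H.Walk u a, w.IsPath → w.length = H.dist u a := by
    intro w hw
    obtain ⟨m, hm, hml⟩ := hua.exists_path_of_dist
    have : (⟨w, hw⟩ : H.Path u a) = ⟨m, hm⟩ := hH.path_unique _ _
    have h2 : w = m := congrArg Subtype.val this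
    rw [h2, hml]
  have hnot : a ∉ p.support := by
    intro ha
    have h1 := hlen (p.takeUntil a ha) (hp.takeUntil ha)
    have h2 := p.length_takeUntil_le_length ha
    omega
  have hnot' : a ∉ p'.support := by
    intro ha
    have h1 := hlen (p'.takeUntil a ha) (hp'.takeUntil ha)
    have h2 := p'.length_takeUntil_le_length ha
    omega
  have h1 : (⟨p.concat hb, hp.concat hnot hb⟩ : H.Path u a) = ⟨p'.concat hb', hp'.concat hnot' hb'⟩ :=
    hH.path_unique _ _
  have h2 : p.concat hb = p'.concat hb' := congrArg Subtype.val h1
  obtain ⟨hv, -⟩ := SimpleGraph.Walk.concat_inj h2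
  exact hv

/-- Part F1. Every acyclic graph is a rooted forest (root: `ConnectedComponent.out`; `r` the distance to the root; `IsAcyclic.path_unique`). -/
theorem exists_RF (H : SimpleGraph V) (hH : H.IsAcyclic) :
    ∃ (S : Finset V) (par : V → V) (r : V → ℕ), RF H S par r := by
  classical
  -- the root of the component
  set root : V → V := fun y => Quot.out (H.connectedComponentMk y) with hroot
  have hreach : ∀ y, H.Reachable (root y) y := by
    intro y
    apply SimpleGraph.ConnectedComponent.exact
    exact Quot.out_eq (H.connectedComponentMk y)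
  have hrooteq : ∀ {a b}, H.Reachable a b → root a = root b := by
    intro a b hab
    simp only [hroot]
    rw [SimpleGraph.ConnectedComponent.sound hab]
  set r : V → ℕ := fun y => H.dist (root y) y with hr
  -- a parent for every vertex at positive distance
  have hpar : ∀ y, r y ≠ 0 → ∃ b, H.Adj y b ∧ r b + 1 = r y := by
    intro y hy
    obtain ⟨p, hp⟩ := (hreach y).exists_walk_length_eq_dist
    have hne : ¬ p.Nil := by
      intro hnil
      have := SimpleGraph.Walk.Nil.length_eq_zero hnil
      exact hy (by simp only [hr]; omega)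
    have hadj : H.Adj p.penultimate y := p.adj_penultimate hne
    refine ⟨p.penultimate, hadj.symm, ?_⟩
    have hrr : root p.penultimate = root y := hrooteq hadj.reachable
    simp only [hr]
    rw [hrr]
    rcases hH.dist_eq_dist_add_one_of_adj_of_reachable (root y) hadj
        ((hreach y).trans hadj.symm.reachable) with h | h
    · exfalso
      -- the walk `p.dropLast` shows the distance is smaller
      have hd : H.dist (root y) p.penultimate ≤ p.dropLast.length := SimpleGraph.dist_le _
      have hl : p.dropLast.length + 1 = p.length := by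
        have := SimpleGraph.Walk.length_dropLast_add_one hne
        exact this
      omega
    · exact h.symm
  set par : V → V := fun y => if h : r y ≠ 0 then Classical.choose (hpar y h) else y with hpardef
  have hparspec : ∀ y, r y ≠ 0 → H.Adj y (par y) ∧ r (par y) + 1 = r y := by
    intro y hy
    simp only [hpardef]
    rw [dif_pos hy]
    exact Classical.choose_spec (hpar y hy)
  refine ⟨univ.filter (fun y => r y = 0), par, r, ?_, ?_, ?_, ?_⟩
  · intro y hy
    have hy0 : r y = 0 := (Finset.mem_filter.1 hy).2
    simp only [hpardef]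
    rw [dif_neg (by simpa using hy0)]
  · intro y hy
    have hy0 : r y ≠ 0 := fun h => hy (Finset.mem_filter.2 ⟨mem_univ _, h⟩)
    have := (hparspec y hy0).2
    omega
  · intro y hy
    have hy0 : r y ≠ 0 := fun h => hy (Finset.mem_filter.2 ⟨mem_univ _, h⟩)
    exact (hparspec y hy0).1
  · intro a b hab
    have hrr : root a = root b := hrooteq hab.reachable
    -- one of the two is closer to the root
    have key : ∀ {x y : V}, H.Adj x y → root x = root y → r y + 1 = r x →
        x ∉ univ.filter (fun y => r y = 0) ∧ par x = y := by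
      intro x y hxy hroots hd
      have hx0 : r x ≠ 0 := by omega
      refine ⟨fun h => hx0 (Finset.mem_filter.1 h).2, ?_⟩
      obtain ⟨h1, h2⟩ := hparspec x hx0
      have hrp : root (par x) = root x := (hrooteq h1.reachable).symm
      apply parent_unique hH (u := root x) (a := x)
      · rw [← hrp]; exact hreach _
      · rw [hroots]; exact hreach _
      · exact h1.symm
      · exact hxy.symm
      · have : r (par x) = H.dist (root x) (par x) := by simp only [hr]; rw [hrp]
        rw [← this]
        exact h2
      · have : r y = H.dist (root x) y := by simp only [hr]; rw [hroots]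
        rw [← this]
        exact hd
    rcases hH.dist_eq_dist_add_one_of_adj_of_reachable (root a) hab (hreach a) with h | h
    · left
      exact key hab hrr (by simp only [hr]; rw [← hrr]; omega)
    · right
      exact key hab.symm hrr.symm (by simp only [hr]; rw [← hrr]; omega)

/-- Part F2. Connected `G`, rooted at its top vertex: every embedding `φ` with `φ z` of minimal depth goes down along every rooted spanning tree at `z`.
(For a child `y` of `y'`: the edge `φ y' φ y` of `H` goes down: going up would give `φ y = par (φ y') = φ (π y')`, so `y = π y'`, or a smaller depth at `z`.) -/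
theorem top_down {H : SimpleGraph V} {S : Finset V} {par : V → V} {r : V → ℕ} (hRF : RF H S par r)
    {β : Type} [Fintype β] {G : SimpleGraph β} {z : β} {π : β → β} {rG : β → ℕ}
    (hT : RootedT G z π rG) {φ : β → V} (hφ : φ ∈ emb G H) (hz : ∀ y, r (φ z) ≤ r (φ y)) (y : β)
    (hy : y ≠ z) : φ y ∉ S ∧ par (φ y) = φ (π y) := by
  obtain ⟨hinj, hhom⟩ := mem_emb.1 hφ
  induction' hk : rG y using Nat.strong_induction_on with k ih generalizing y
  obtain ⟨hlt, hadj⟩ := hT.hpar y hy
  rcases hRF.edge _ _ (hhom _ _ hadj) with ⟨h1, h2⟩ | h
  · exfalso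
    by_cases hpz : π y = z
    · have h3 := hRF.rank _ h1
      rw [h2, hpz] at h3
      exact absurd (hz y) (not_le.2 h3)
    · obtain ⟨_, h4⟩ := ih (rG (π y)) (hk ▸ hlt) (π y) hpz rfl
      have h5 : y = π (π y) := hinj (h2.symm.trans h4)
      have h6 := (hT.hpar _ hpz).1
      rw [← h5] at h6
      exact absurd hlt (not_lt.2 h6.le)
  · exact h

/-- Part F3. If `G` embeds in the forest, then `e(G) ≤ v(G) - 1`: an edge of `G` is determined by its lower end, the top vertex is not a lower end. -/
theorem edges_le {H : SimpleGraph V} {S : Finset V} {par : V → V} {r : V → ℕ} (hRF : RF H S par r)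
    {β : Type} [Fintype β] [Nonempty β] {G : SimpleGraph β} {φ : β → V} (hφ : φ ∈ emb G H) :
    (eIn G univ).card + 1 ≤ Fintype.card β := by
  obtain ⟨hinj, hhom⟩ := mem_emb.1 hφ
  obtain ⟨t, -, ht⟩ := (univ : Finset β).exists_min_image (fun y => r (φ y)) univ_nonempty
  let g : β → Sym2 β := fun a =>
    if h : ∃ b, φ a ∉ S ∧ φ b = par (φ a) then s(a, Classical.choose h) else s(a, a)
  have hg : ∀ a b, φ a ∉ S → par (φ a) = φ b → g a = s(a, b) := by
    intro a b h1 h2
    have h : ∃ b, φ a ∉ S ∧ φ b = par (φ a) := ⟨b, h1, h2.symm⟩
    have h3 : g a = s(a, Classical.choose h) := dif_pos h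
    have h4 := (Classical.choose_spec h).2
    have h5 : Classical.choose h = b := hinj (h4.trans h2)
    rw [h3, h5]
  have hlow : ∀ a b, φ a ∉ S → par (φ a) = φ b → a ≠ t := by
    rintro a b h1 h2 rfl
    have h3 := hRF.rank _ h1
    rw [h2] at h3
    exact absurd (ht b (mem_univ _)) (not_le.2 h3)
  have hsub : eIn G univ ⊆ (univ.erase t).image g := by
    intro e he
    simp only [eIn, mem_filter, mem_univ, true_and] at he
    induction' e using Sym2.ind with a b
    have hab : G.Adj a b := by simpa using he.1
    rw [mem_image]
    rcases hRF.edge _ _ (hhom _ _ hab) with ⟨h1, h2⟩ | ⟨h1, h2⟩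
    · exact ⟨a, mem_erase.2 ⟨hlow a b h1 h2, mem_univ _⟩, hg a b h1 h2⟩
    · refine ⟨b, mem_erase.2 ⟨hlow b a h1 h2, mem_univ _⟩, ?_⟩
      rw [hg b a h1 h2, Sym2.eq_swap]
  have h1 := (card_le_card hsub).trans card_image_le
  rw [card_erase_of_mem (mem_univ t), card_univ] at h1
  have h2 : 0 < Fintype.card β := Fintype.card_pos_iff.2 ⟨t⟩
  omega

/-- Part F3. Every connected graph has a rooted spanning tree at any vertex. -/
theorem exists_rooted {β : Type} [Fintype β] {G : SimpleGraph β}
    (hconn : ∀ D : Finset β, D.Nonempty → D ≠ univ → ∃ u ∈ D, ∃ w, w ∉ D ∧ G.Adj u w) (z : β) :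
    ∃ (π : β → β) (rG : β → ℕ), RootedT G z π rG := by
  have hreach : ∀ v, G.Reachable v z := by
    by_contra hne
    push Not at hne
    obtain ⟨v0, hv0⟩ := hne
    let D : Finset β := univ.filter fun v => G.Reachable v z
    have hD : D.Nonempty := ⟨z, by simp [D]⟩
    have hDne : D ≠ univ := by
      intro h
      have : v0 ∈ D := h ▸ mem_univ v0
      exact hv0 (by simpa [D] using this)
    obtain ⟨u, hu, w, hw, huw⟩ := hconn D hD hDne
    have hu' : G.Reachable u z := by simpa [D] using hu
    have hw' : G.Reachable w z := huw.symm.reachable.trans hu'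
    exact hw (by simpa [D] using hw')
  have hstep : ∀ v, v ≠ z → ∃ u, G.dist u z < G.dist v z ∧ G.Adj u v := by
    intro v hv
    obtain ⟨p, hp⟩ := (hreach v).exists_walk_length_eq_dist
    cases p with
    | nil => exact absurd rfl hv
    | @cons _ u _ hadj q =>
      refine ⟨u, ?_, hadj.symm⟩
      have h1 : G.dist u z ≤ q.length := SimpleGraph.dist_le q
      simp only [SimpleGraph.Walk.length_cons] at hp
      omega
  refine ⟨fun v => if h : v = z then z else Classical.choose (hstep v h), fun v => G.dist v z, ?_, ?_⟩
  · simp
  · intro v hv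
    simp only [dif_neg hv]
    exact Classical.choose_spec (hstep v hv)

end Vale.Agent.Lib.P064F
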