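import Vale.Agent.Lib.P064F.Rare

/-!
The total weight (notes/P064F_blueprint.md, parts E1, E2, E3).
-/

open Finset

namespace Vale.Agent.Lib.P064F

open Vale.Agent.Lib.P064
open scoped Classical

variable {V : Type} [Fintype V]

/-- Part E1. Weak `ℓ¹` with bounded range: levels `2^k`, `k < K`. -/
theorem weak_l1 (C : Finset V) (f : V → ℝ) (K : ℕ) (B : ℝ) (h1 : ∀ x ∈ C, 1 ≤ f x)
    (h2 : ∀ x ∈ C, f x < 2 ^ K)
    (hlev : ∀ k < K, ((C.filter fun x => (2 : ℝ) ^ k ≤ f x).card : ℝ) * 2 ^ k ≤ B) :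
    ∑ x ∈ C, f x ≤ 2 * K * B := by
  have hpt : ∀ x ∈ C, f x ≤ 2 * ∑ k ∈ range K, if (2 : ℝ) ^ k ≤ f x then (2 : ℝ) ^ k else 0 := by
    intro x hx
    obtain ⟨j, hj1, hj2⟩ := exists_nat_pow_near (h1 x hx) (by norm_num : (1 : ℝ) < 2)
    have hjK : j < K := by
      have : (2 : ℝ) ^ j < 2 ^ K := lt_of_le_of_lt hj1 (h2 x hx)
      exact (pow_lt_pow_iff_right₀ (by norm_num : (1 : ℝ) < 2)).1 this
    have hmem : j ∈ range K := Finset.mem_range.2 hjK
    have hsingle : (if (2 : ℝ) ^ j ≤ f x then (2 : ℝ) ^ j else 0) ≤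
        ∑ k ∈ range K, if (2 : ℝ) ^ k ≤ f x then (2 : ℝ) ^ k else 0 := by
      refine Finset.single_le_sum (f := fun k => if (2 : ℝ) ^ k ≤ f x then (2 : ℝ) ^ k else 0)
        (fun k _ => ?_) hmem
      split_ifs <;> positivity
    rw [if_pos hj1] at hsingle
    have : f x < 2 * 2 ^ j := by rw [pow_succ] at hj2; linarith
    linarith
  calc ∑ x ∈ C, f x
      ≤ ∑ x ∈ C, 2 * ∑ k ∈ range K, if (2 : ℝ) ^ k ≤ f x then (2 : ℝ) ^ k else 0 :=
        Finset.sum_le_sum hpt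
    _ = 2 * ∑ k ∈ range K, ∑ x ∈ C, if (2 : ℝ) ^ k ≤ f x then (2 : ℝ) ^ k else 0 := by
        rw [← Finset.mul_sum, Finset.sum_comm]
    _ = 2 * ∑ k ∈ range K, ((C.filter fun x => (2 : ℝ) ^ k ≤ f x).card : ℝ) * 2 ^ k := by
        congr 1
        refine Finset.sum_congr rfl fun k _ => ?_
        rw [← Finset.sum_filter, Finset.sum_const, nsmul_eq_mul]
    _ ≤ 2 * ∑ _k ∈ range K, B := by
        refine mul_le_mul_of_nonneg_left ?_ (by norm_num)
        exact Finset.sum_le_sum fun k hk => hlev k (Finset.mem_range.1 hk)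
    _ = 2 * K * B := by
        rw [Finset.sum_const, Finset.card_range, nsmul_eq_mul]; ring

/-- The numerics of one level. -/
lemma rare_level {m : ℕ} (hm : 1 ≤ m) {Y Z : ℝ} (hY : 0 ≤ Y) (hZ : 0 < Z)
    (h : (m.factorial : ℝ) * Y ^ m ≤ 4 * Real.exp 1 * Z ^ m) :
    (m : ℝ) * Y ≤ 4 * Real.exp 1 * (Real.exp 1 * Z) := by
  have hfac : (0 : ℝ) < m.factorial := by exact_mod_cast Nat.factorial_pos m
  have hm0 : (0 : ℝ) ≤ m := Nat.cast_nonneg m
  have h1 : (m : ℝ) ^ m / (m.factorial : ℝ) ≤ Real.exp m := Real.pow_div_factorial_le_exp _ hm0 m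
  have h2 : (m : ℝ) ^ m ≤ (m.factorial : ℝ) * Real.exp 1 ^ m := by
    have h3 : Real.exp (m : ℝ) = Real.exp 1 ^ m := by
      rw [← Real.exp_nat_mul]; simp
    rw [div_le_iff₀ hfac, h3] at h1
    linarith
  have hW : 0 < Real.exp 1 * Z := by positivity
  set W := Real.exp 1 * Z with hWdef
  have h4 : ((m : ℝ) * Y) ^ m ≤ 4 * Real.exp 1 * W ^ m := by
    calc ((m : ℝ) * Y) ^ m = (m : ℝ) ^ m * Y ^ m := mul_pow _ _ _
      _ ≤ ((m.factorial : ℝ) * Real.exp 1 ^ m) * Y ^ m :=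
          mul_le_mul_of_nonneg_right h2 (by positivity)
      _ = Real.exp 1 ^ m * ((m.factorial : ℝ) * Y ^ m) := by ring
      _ ≤ Real.exp 1 ^ m * (4 * Real.exp 1 * Z ^ m) :=
          mul_le_mul_of_nonneg_left h (by positivity)
      _ = 4 * Real.exp 1 * W ^ m := by rw [hWdef, mul_pow]; ring
  by_contra hcon
  push Not at hcon
  have he1 : (1 : ℝ) ≤ 4 * Real.exp 1 := by
    have := Real.add_one_le_exp (1 : ℝ)
    linarith
  have hr : 4 * Real.exp 1 < (m : ℝ) * Y / W := by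
    rw [lt_div_iff₀ hW]; exact hcon
  have hr1 : (1 : ℝ) ≤ (m : ℝ) * Y / W := by linarith
  have h5 : (m : ℝ) * Y / W ≤ ((m : ℝ) * Y / W) ^ m := le_self_pow₀ hr1 (by omega)
  have h6 : ((m : ℝ) * Y / W) ^ m ≤ 4 * Real.exp 1 := by
    rw [div_pow, div_le_iff₀ (pow_pos hW m)]
    exact h4
  linarith

variable {H : SimpleGraph V} {S : Finset V} {par : V → V} {r : V → ℕ} {n : ℕ} {q D : ℝ}
  {T : V → Finset V} {R : V → ℝ}

/-- The product of the factorials in one down-tree. -/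
private lemma prod_fact_eq (hT : SelHyp T S par r) (hD1 : 1 ≤ D)
    (hR : ∀ x, R x = wt (1 / (16 * D)) (T x) * ∏ v ∈ T x, R v) {E : ℕ} {x : V}
    (hx : (Ft T x).card = E + 1) :
    ∑ y ∈ Ft T x, (T y).card = E ∧
      R x = (∏ y ∈ Ft T x, ((T y).card.factorial : ℝ)) * (1 / (16 * D)) ^ E := by
  have hs := sum_card_T hT x
  have hs' : ∑ y ∈ Ft T x, (T y).card = E := by omega
  refine ⟨hs', ?_⟩
  rw [prod_Ft hT hR x]
  unfold wt
  rw [Finset.prod_mul_distrib, Finset.prod_pow_eq_pow_sum, hs']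

/-- Part E2. One size class: all `Ft x` have `E + 1` elements. -/
theorem class_sum {H : SimpleGraph V} {S : Finset V} {par : V → V} {r : V → ℕ} {n : ℕ} {q D : ℝ}
    (hRF : RF H S par r) (hG : GoodDensity n q H) (hq0 : 0 < q) (hq1 : q ≤ 1) (hD : D = n * q)
    (hD1 : 1 ≤ D) (hn : 1 ≤ n) {T : V → Finset V} (hT : SelHyp T S par r) {R : V → ℝ}
    (hR : ∀ x, R x = wt (1 / (16 * D)) (T x) * ∏ v ∈ T x, R v) (hR1 : ∀ x, 1 ≤ R x) (E : ℕ) (hE : 1 ≤ E) :
    ∑ x ∈ univ.filter (fun x => (Ft T x).card = E + 1), R x ≤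
      2 * ((E : ℝ) ^ 2 + 1) * (16 * Real.exp 2 * n / 4 ^ E) := by
  have hDpos : 0 < D := by linarith
  have hnpos : (0 : ℝ) < n := by exact_mod_cast hn
  set C := univ.filter (fun x => (Ft T x).card = E + 1) with hC
  have hmemC : ∀ x ∈ C, (Ft T x).card = E + 1 := fun x hx => (Finset.mem_filter.1 hx).2
  have hBnn : 0 ≤ 16 * Real.exp 2 * n / (4 : ℝ) ^ E := by positivity
  have h2 : ∀ x ∈ C, R x < 2 ^ (E ^ 2 + 1) := by
    intro x hx
    obtain ⟨hs, hRx⟩ := prod_fact_eq hT hD1 hR (hmemC x hx)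
    have ha : (1 / (16 * D)) ^ E ≤ 1 := by
      apply pow_le_one₀ (by positivity)
      rw [div_le_one (by positivity)]
      linarith
    have hprod : (∏ y ∈ Ft T x, ((T y).card.factorial : ℝ)) ≤ (E.factorial : ℝ) := by
      have hdvd : (∏ y ∈ Ft T x, (T y).card.factorial) ∣ (∑ y ∈ Ft T x, (T y).card).factorial :=
        Nat.prod_factorial_dvd_factorial_sum _ _
      rw [hs] at hdvd
      have hle := Nat.le_of_dvd (Nat.factorial_pos E) hdvd
      have : ((∏ y ∈ Ft T x, (T y).card.factorial : ℕ) : ℝ) ≤ (E.factorial : ℝ) := by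
        exact_mod_cast hle
      simpa [Nat.cast_prod] using this
    have hfac : E.factorial ≤ 2 ^ (E ^ 2) := by
      calc E.factorial ≤ E ^ E := Nat.factorial_le_pow E
        _ ≤ (2 ^ E) ^ E := Nat.pow_le_pow_left (Nat.lt_two_pow_self).le E
        _ = 2 ^ (E ^ 2) := by rw [← pow_mul, sq]
    have hfac' : (E.factorial : ℝ) ≤ 2 ^ (E ^ 2) := by exact_mod_cast hfac
    have hprod0 : 0 ≤ ∏ y ∈ Ft T x, ((T y).card.factorial : ℝ) :=
      Finset.prod_nonneg fun _ _ => Nat.cast_nonneg _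
    have hlt : (2 : ℝ) ^ (E ^ 2) < 2 ^ (E ^ 2 + 1) :=
      pow_lt_pow_right₀ (by norm_num) (by omega)
    calc R x = (∏ y ∈ Ft T x, ((T y).card.factorial : ℝ)) * (1 / (16 * D)) ^ E := hRx
      _ ≤ (∏ y ∈ Ft T x, ((T y).card.factorial : ℝ)) * 1 :=
          mul_le_mul_of_nonneg_left ha hprod0
      _ ≤ (2 : ℝ) ^ (E ^ 2) := by rw [mul_one]; exact hprod.trans hfac'
      _ < 2 ^ (E ^ 2 + 1) := hlt
  have hlev : ∀ k < E ^ 2 + 1, ((C.filter fun x => (2 : ℝ) ^ k ≤ R x).card : ℝ) * 2 ^ k ≤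
      16 * Real.exp 2 * n / 4 ^ E := by
    intro k _
    set B := C.filter fun x => (2 : ℝ) ^ k ≤ R x with hB
    rcases Nat.eq_zero_or_pos B.card with hm0 | hmpos
    · rw [hm0]; simpa using hBnn
    set m := B.card with hm
    have hBC : ∀ x ∈ B, (Ft T x).card = E + 1 := fun x hx =>
      hmemC x (Finset.mem_filter.1 hx).1
    have hdis : ∀ x ∈ B, ∀ x' ∈ B, x ≠ x' → Disjoint (Ft T x) (Ft T x') := fun x hx x' hx' hne =>
      Ft_disjoint hT hne ((hBC x hx).trans (hBC x' hx').symm)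
    have hEsum : ∑ x ∈ B, ∑ y ∈ Ft T x, (T y).card = m * E := by
      rw [Finset.sum_congr rfl fun x hx => (prod_fact_eq hT hD1 hR (hBC x hx)).1,
        Finset.sum_const, smul_eq_mul]
    have hE1 : 1 ≤ m * E := Nat.mul_pos hmpos hE
    have hrare := rare hRF hG hq0 hq1 hT B hdis (m * E) hEsum hE1
    set t : ℝ := (2 : ℝ) ^ k with ht
    have htpos : 0 < t := by positivity
    have hlower : (t * (16 * D) ^ E) ^ m ≤
        ∏ x ∈ B, ∏ y ∈ Ft T x, ((T y).card.factorial : ℝ) := by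
      have hconst : (t * (16 * D) ^ E) ^ m = ∏ _x ∈ B, (t * (16 * D) ^ E) := by
        rw [Finset.prod_const]
      rw [hconst]
      refine Finset.prod_le_prod (fun _ _ => by positivity) fun x hx => ?_
      obtain ⟨_, hRx⟩ := prod_fact_eq hT hD1 hR (hBC x hx)
      have hRt : t ≤ R x := (Finset.mem_filter.1 hx).2
      have hne : (16 * D) ^ E ≠ 0 := by positivity
      have h3 : R x * (16 * D) ^ E = ∏ y ∈ Ft T x, ((T y).card.factorial : ℝ) := by
        rw [hRx, mul_assoc, ← mul_pow]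
        have : 1 / (16 * D) * (16 * D) = 1 := by field_simp
        rw [this, one_pow, mul_one]
      rw [← h3]
      exact mul_le_mul_of_nonneg_right hRt (by positivity)
    have hfacpos : (0 : ℝ) ≤ m.factorial := Nat.cast_nonneg _
    have hmain : (m.factorial : ℝ) * (t * (16 * D) ^ E) ^ m ≤
        Real.exp 1 * (4 : ℝ) ^ (m + m * E + 1) * ((n : ℝ) ^ m * ((n : ℝ) * q) ^ (m * E)) :=
      (mul_le_mul_of_nonneg_left hlower hfacpos).trans hrare
    rw [← hD] at hmain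
    -- rewrite in terms of `A = 4 ^ E`, `G = D ^ E`
    set A : ℝ := (4 : ℝ) ^ E with hA
    set G : ℝ := D ^ E with hGdef
    have hApos : 0 < A := by positivity
    have hGpos : 0 < G := by positivity
    have h16 : (16 * D) ^ E = A * A * G := by
      have h44 : 16 * D = 4 * 4 * D := by norm_num
      rw [h44, mul_pow, mul_pow]
    have h4 : (4 : ℝ) ^ (m + m * E + 1) = 4 ^ m * A ^ m * 4 := by
      rw [pow_succ, pow_add, hA, ← pow_mul, mul_comm E m]
    have hDm : D ^ (m * E) = G ^ m := by rw [hGdef, ← pow_mul, mul_comm]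
    rw [h16, h4, hDm] at hmain
    have hkey : (m.factorial : ℝ) * (t * A) ^ m ≤ 4 * Real.exp 1 * (4 * (n : ℝ)) ^ m := by
      have hc : 0 < (A * G) ^ m := by positivity
      refine le_of_mul_le_mul_right ?_ hc
      calc (m.factorial : ℝ) * (t * A) ^ m * (A * G) ^ m
          = (m.factorial : ℝ) * (t * (A * A * G)) ^ m := by
            rw [mul_assoc, ← mul_pow]; congr 2; ring
        _ ≤ Real.exp 1 * (4 ^ m * A ^ m * 4) * ((n : ℝ) ^ m * G ^ m) := hmain
        _ = 4 * Real.exp 1 * (4 * (n : ℝ)) ^ m * (A * G) ^ m := by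
            rw [mul_pow, mul_pow]; ring
    have hfin := rare_level hmpos (Y := t * A) (Z := 4 * (n : ℝ)) (by positivity) (by positivity) hkey
    have he2 : Real.exp 2 = Real.exp 1 * Real.exp 1 := by
      rw [← Real.exp_add]; norm_num
    rw [le_div_iff₀ hApos, he2]
    nlinarith [hfin]
  have := weak_l1 C R (E ^ 2 + 1) (16 * Real.exp 2 * n / 4 ^ E)
    (fun x _ => hR1 x) h2 hlev
  push_cast at this
  exact this

/-- Part E3. The sum over all vertices. -/
theorem sum_R_le {H : SimpleGraph V} {S : Finset V} {par : V → V} {r : V → ℕ} {n : ℕ} {q D : ℝ}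
    (hRF : RF H S par r) (hG : GoodDensity n q H) (hq0 : 0 < q) (hq1 : q ≤ 1) (hD : D = n * q)
    (hD1 : 1 ≤ D) (hn : 1 ≤ n) (hV : Fintype.card V ≤ n) {T : V → Finset V} (hT : SelHyp T S par r)
    {R : V → ℝ} (hR : ∀ x, R x = wt (1 / (16 * D)) (T x) * ∏ v ∈ T x, R v) (hR1 : ∀ x, 1 ≤ R x) :
    ∑ x, R x ≤ (1 + 64 * Real.exp 2 * 4) * n := by
  have hnpos : (0 : ℝ) < n := by exact_mod_cast hn
  have hcardFt : ∀ x, 1 ≤ (Ft T x).card := fun x =>
    Finset.card_pos.2 ⟨x, self_mem_Ft x⟩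
  set N := Fintype.card V with hN
  have hmaps : ∀ x ∈ (univ : Finset V), (Ft T x).card - 1 ∈ range (N + 1) := by
    intro x _
    refine Finset.mem_range.2 ?_
    have : (Ft T x).card ≤ N := by rw [hN]; exact Finset.card_le_univ _
    omega
  rw [← Finset.sum_fiberwise_of_maps_to hmaps, Finset.sum_range_succ']
  -- the class `E = 0`
  have h0 : ∑ x ∈ univ.filter (fun x => (Ft T x).card - 1 = 0), R x ≤ n := by
    have hval : ∀ x ∈ univ.filter (fun x => (Ft T x).card - 1 = 0), R x = 1 := by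
      intro x hx
      have hx' := (Finset.mem_filter.1 hx).2
      have hone : (Ft T x).card = 1 := by have := hcardFt x; omega
      have hs := sum_card_T hT x
      have hzero : ∑ y ∈ Ft T x, (T y).card = 0 := by omega
      have hTx : (T x).card = 0 :=
        (Finset.sum_eq_zero_iff.1 hzero) x (self_mem_Ft x)
      have hTx' : T x = ∅ := Finset.card_eq_zero.1 hTx
      rw [hR x, hTx']
      simp [wt]
    rw [Finset.sum_congr rfl hval, Finset.sum_const, nsmul_eq_mul, mul_one]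
    have h1 : (univ.filter (fun x => (Ft T x).card - 1 = 0)).card ≤ n :=
      (Finset.card_le_univ _).trans hV
    exact_mod_cast h1
  -- the classes `E ≥ 1`
  have hE2 : ∀ E : ℕ, (E : ℝ) ^ 2 + 1 ≤ 2 * 2 ^ E := by
    intro E
    have h : E ^ 2 + 1 ≤ 2 * 2 ^ E := by
      induction E using Nat.strong_induction_on with
      | _ E ih =>
        match E with
        | 0 => norm_num
        | 1 => norm_num
        | 2 => norm_num
        | 3 => norm_num
        | E + 4 =>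
          have h1 := ih (E + 3) (by omega)
          have h2 : (E + 4) ^ 2 + 1 ≤ 2 * ((E + 3) ^ 2 + 1) := by
            calc (E + 4) ^ 2 + 1 = E ^ 2 + 8 * E + 17 := by ring
              _ ≤ 2 * (E ^ 2 + 6 * E + 10) := by linarith [Nat.zero_le (E ^ 2)]
              _ = 2 * ((E + 3) ^ 2 + 1) := by ring
          have h3 : 2 ^ (E + 4) = 2 * 2 ^ (E + 3) := by ring
          rw [h3]
          omega
    exact_mod_cast h
  have hclass : ∀ E : ℕ, ∑ x ∈ univ.filter (fun x => (Ft T x).card - 1 = E + 1), R x ≤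
      32 * Real.exp 2 * n * (1 / 2 : ℝ) ^ E := by
    intro E
    have hset : univ.filter (fun x => (Ft T x).card - 1 = E + 1) =
        univ.filter (fun x => (Ft T x).card = E + 1 + 1) := by
      ext x
      simp only [Finset.mem_filter, Finset.mem_univ, true_and]
      have := hcardFt x
      omega
    rw [hset]
    refine (class_sum hRF hG hq0 hq1 hD hD1 hn hT hR hR1 (E + 1) (by omega)).trans ?_
    have h1 := hE2 (E + 1)
    have hpos : 0 ≤ 16 * Real.exp 2 * (n : ℝ) / (4 : ℝ) ^ (E + 1) := by positivity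
    have h2 : 2 * (((E + 1 : ℕ) : ℝ) ^ 2 + 1) * (16 * Real.exp 2 * n / 4 ^ (E + 1)) ≤
        2 * (2 * 2 ^ (E + 1)) * (16 * Real.exp 2 * n / 4 ^ (E + 1)) := by
      refine mul_le_mul_of_nonneg_right ?_ hpos
      linarith
    refine h2.trans (le_of_eq ?_)
    have h4 : (4 : ℝ) ^ (E + 1) = 2 ^ (E + 1) * 2 ^ (E + 1) := by
      rw [← mul_pow]; norm_num
    have h5 : (1 / 2 : ℝ) ^ E = 1 / 2 ^ E := by rw [div_pow, one_pow]
    rw [h4, h5, pow_succ]
    field_simp
    ring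
  have hsum : ∑ E ∈ range N, ∑ x ∈ univ.filter (fun x => (Ft T x).card - 1 = E + 1), R x ≤
      32 * Real.exp 2 * n * 2 := by
    calc _ ≤ ∑ E ∈ range N, 32 * Real.exp 2 * n * (1 / 2 : ℝ) ^ E :=
          Finset.sum_le_sum fun E _ => hclass E
      _ = 32 * Real.exp 2 * n * ∑ E ∈ range N, (1 / 2 : ℝ) ^ E := by rw [Finset.mul_sum]
      _ ≤ 32 * Real.exp 2 * n * 2 :=
          mul_le_mul_of_nonneg_left (sum_geometric_two_le N) (by positivity)
  have he2 : 0 < Real.exp 2 := Real.exp_pos 2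
  nlinarith [hsum, h0, mul_pos he2 hnpos]

end Vale.Agent.Lib.P064F
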